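import Vale.Agent.P207.N4.Geo.LogicD
import Vale.Agent.P207.N4.H709.ClkR

/-!
# P207: the statement of the logic for pointwise bunching

`LogicB` : the statement of the logic, if at some time the largest expansion of the unstable leaves
is less than the square of the smallest expansion, in each frame.
-/

open Set Filter Topology Metric MeasureTheory
open scoped ContDiff ENNReal

noncomputable section

namespace Vale.Agent.P207.N4

open Vale.Agent.P207.N3

/-- The statement of the logic, for pointwise bunching. -/
def LogicB [Dim] : Prop :=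
  ∀ {Γ X B V : Type} [Group Γ] [MetricSpace X] [ProperSpace X] [MulAction Γ X]
    [IsIsometricSMul Γ X] [TopologicalSpace B] [CompactSpace B] [T2Space B] [MulAction Γ B]
    [ContinuousConstSMul Γ B] [MeasurableSpace B] [BorelSpace B]
    [NormedAddCommGroup V] [NormedSpace ℝ V] [FiniteDimensional ℝ V]
    (L : Leaf Γ X B) (S : Suite L V) (_ : H618.Conn S.I S.M.U) (a b : ℝ),
    0 < a → a ≤ b →
    (∀ x v, a * ‖v‖ ^ 2 ≤ inner ℝ (S.M.U x v) v) →
    (∀ x v, inner ℝ (S.M.U x v) v ≤ b * ‖v‖ ^ 2) →
    H709.BunM L → H662.Calib L S.A → NuB S.A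

end Vale.Agent.P207.N4
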