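import Vale.Agent.P207.N4.Geo.Top
import Vale.Agent.P207.N4.Top.Suite
import Vale.Agent.P207.N4.H618.Conn

/-!
# P207, line N4: the statement of the logic
-/

open Set Filter Topology Metric MeasureTheory
open scoped ContDiff ENNReal

noncomputable section

namespace Vale.Agent.P207.N4

open Vale.Agent.P207.N3

/-- The statement of the logic: with the rates `a ≤ U ≤ b`, `2 b < 3 a`, the visual measure has
the optimal bound. -/
def LogicN4 [Dim] : Prop :=
  ∀ {Γ X B V : Type} [Group Γ] [MetricSpace X] [ProperSpace X] [MulAction Γ X]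
    [IsIsometricSMul Γ X] [TopologicalSpace B] [CompactSpace B] [T2Space B] [MulAction Γ B]
    [ContinuousConstSMul Γ B] [MeasurableSpace B] [BorelSpace B]
    [NormedAddCommGroup V] [NormedSpace ℝ V] [FiniteDimensional ℝ V]
    (L : Leaf Γ X B) (S : Suite L V) (_ : H618.Conn S.I S.M.U) (a b : ℝ),
    0 < a → a ≤ b → 2 * b < 3 * a →
    (∀ x v, a * ‖v‖ ^ 2 ≤ inner ℝ (S.M.U x v) v) →
    (∀ x v, inner ℝ (S.M.U x v) v ≤ b * ‖v‖ ^ 2) → H662.Calib L S.A → NuB S.A

/-- The statement of the logic, for the condition `Q a b` on the rates `a ≤ U ≤ b`. -/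
def LogicQ [Dim] (Q : ℝ → ℝ → Prop) : Prop :=
  ∀ {Γ X B V : Type} [Group Γ] [MetricSpace X] [ProperSpace X] [MulAction Γ X]
    [IsIsometricSMul Γ X] [TopologicalSpace B] [CompactSpace B] [T2Space B] [MulAction Γ B]
    [ContinuousConstSMul Γ B] [MeasurableSpace B] [BorelSpace B]
    [NormedAddCommGroup V] [NormedSpace ℝ V] [FiniteDimensional ℝ V]
    (L : Leaf Γ X B) (S : Suite L V) (_ : H618.Conn S.I S.M.U) (a b : ℝ),
    0 < a → a ≤ b → Q a b →
    (∀ x v, a * ‖v‖ ^ 2 ≤ inner ℝ (S.M.U x v) v) →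
    (∀ x v, inner ℝ (S.M.U x v) v ≤ b * ‖v‖ ^ 2) → H662.Calib L S.A → NuB S.A

theorem LogicN4.toQ [Dim] (h : LogicN4) : LogicQ fun a b => 2 * b < 3 * a :=
  fun L S C a b h1 h2 h3 h4 h5 h6 => h L S C a b h1 h2 h3 h4 h5 h6

end Vale.Agent.P207.N4
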