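import Vale.Agent.P207.N4.H266.Metr

/-!
# P207: a pointwise relative bound of the Jacobi operator

`RelK M A` : in each frame the eigenvalues of `-K` lie between `c` and `A c`, for some `c > 0` which
depends on the frame.
-/

open Set Filter Topology Metric
open scoped ContDiff

noncomputable section

namespace Vale.Agent.P207.N4

variable [Dim]

variable {Γ X B : Type} [Group Γ] [MetricSpace X] [ProperSpace X] [MulAction Γ X]
  [IsIsometricSMul Γ X] [TopologicalSpace B] [CompactSpace B] [T2Space B] [MulAction Γ B]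
  [ContinuousConstSMul Γ B] {L : Leaf Γ X B}

/-- The eigenvalues of `-K x` lie between `c` and `A c`, for some `c > 0`. -/
def RelK (M : Metr L) (A : ℝ) : Prop :=
  ∀ x, ∃ c : ℝ, 0 < c ∧ ∀ v, c * ‖v‖ ^ 2 ≤ -inner ℝ (M.K x v) v ∧
    -inner ℝ (M.K x v) v ≤ A * c * ‖v‖ ^ 2

end Vale.Agent.P207.N4
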